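import Mathlib
import Crest.Prelude.Def_TruncExpWeight

/-!
Helper file for statement S0423 (row 280): the lower-bound half (the supremum is approached).
Everything lives in the namespace `Crest.Agent.Helper23.S0423Lower`.
-/

set_option autoImplicit false

open MeasureTheory Set Filter Topology

namespace Crest.Agent.Helper23.S0423Lower

open Crest.AlgGeometry

/-! ### The weight `g = truncExpWeight` -/

/-- the smooth branch `(1 + s) e^{-s}` -/
noncomputable def phi (s : ℝ) : ℝ := (1 + s) * Real.exp (-s)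

lemma hasDerivAt_phi (s : ℝ) : HasDerivAt phi (-s * Real.exp (-s)) s := by
  have h1 : HasDerivAt (fun s : ℝ => 1 + s) 1 s := by
    simpa using (hasDerivAt_id s).const_add 1
  have h2 : HasDerivAt (fun s : ℝ => Real.exp (-s)) (-Real.exp (-s)) s := by
    simpa using ((hasDerivAt_id s).neg).exp
  have h : HasDerivAt (fun s : ℝ => (1 + s) * Real.exp (-s))
      (1 * Real.exp (-s) + (1 + s) * -Real.exp (-s)) s := h1.mul h2
  exact h.congr_deriv (by ring)

lemma truncExpWeight_eq (y : ℝ) : truncExpWeight y = phi (max y 0) := by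
  unfold truncExpWeight phi
  split_ifs with h
  · rw [max_eq_right h]; simp
  · rw [max_eq_left (le_of_lt (not_le.mp h))]

lemma phi_lipschitz_nonneg {x y : ℝ} (hx : 0 ≤ x) (hy : 0 ≤ y) : |phi y - phi x| ≤ |y - x| := by
  have key := Convex.norm_image_sub_le_of_norm_hasDerivWithin_le (f := phi)
    (f' := fun s => -s * Real.exp (-s)) (s := Set.Ici (0:ℝ)) (x := x) (y := y) (C := 1)
    (fun s _ => (hasDerivAt_phi s).hasDerivWithinAt)
    (fun s hs => by
      have hs0 : (0:ℝ) ≤ s := hs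
      rw [Real.norm_eq_abs, abs_mul, abs_neg, abs_of_nonneg hs0, abs_of_pos (Real.exp_pos _)]
      have h1 : s ≤ Real.exp s := by linarith [Real.add_one_le_exp s]
      have h2 : Real.exp (-s) * Real.exp s = 1 := by rw [← Real.exp_add]; simp
      nlinarith [Real.exp_pos (-s), Real.exp_pos s])
    (convex_Ici 0) hx hy
  simpa [Real.norm_eq_abs] using key

lemma truncExpWeight_lipschitz (y z : ℝ) : |truncExpWeight y - truncExpWeight z| ≤ |y - z| := by
  rw [truncExpWeight_eq, truncExpWeight_eq]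
  refine (phi_lipschitz_nonneg (le_max_right z 0) (le_max_right y 0)).trans ?_
  exact abs_max_sub_max_le_abs y z 0

lemma truncExpWeight_nonneg (y : ℝ) : 0 ≤ truncExpWeight y := by
  unfold truncExpWeight
  split_ifs with h
  · exact zero_le_one
  · have : 0 < y := not_le.mp h
    positivity

lemma truncExpWeight_le_one (y : ℝ) : truncExpWeight y ≤ 1 := by
  unfold truncExpWeight
  split_ifs with h
  · exact le_rfl
  · have h1 : 1 + y ≤ Real.exp y := by linarith [Real.add_one_le_exp y]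
    have h2 : Real.exp (-y) * Real.exp y = 1 := by rw [← Real.exp_add]; simp
    nlinarith [Real.exp_pos (-y), Real.exp_pos y]

lemma continuous_truncExpWeight : Continuous truncExpWeight := by
  have : LipschitzWith 1 truncExpWeight := by
    refine LipschitzWith.of_dist_le_mul fun y z => ?_
    simpa [Real.dist_eq] using truncExpWeight_lipschitz y z
  exact this.continuous


/-! ### One-dimensional integrals against `e^{-x} dx` on `(0, ∞)` -/

lemma hasDerivAt_exp_neg (x : ℝ) : HasDerivAt (fun x : ℝ => Real.exp (-x)) (-Real.exp (-x)) x := by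
  simpa using ((hasDerivAt_id x).neg).exp

lemma tendsto_exp_neg : Tendsto (fun x : ℝ => Real.exp (-x)) atTop (𝓝 0) := by
  simpa using Real.tendsto_pow_mul_exp_neg_atTop_nhds_zero 0

lemma tendsto_mul_exp_neg : Tendsto (fun x : ℝ => x * Real.exp (-x)) atTop (𝓝 0) := by
  simpa using Real.tendsto_pow_mul_exp_neg_atTop_nhds_zero 1

lemma tendsto_sq_mul_exp_neg : Tendsto (fun x : ℝ => x ^ 2 * Real.exp (-x)) atTop (𝓝 0) :=
  Real.tendsto_pow_mul_exp_neg_atTop_nhds_zero 2

lemma integrableOn_exp : IntegrableOn (fun x : ℝ => Real.exp (-x)) (Ioi 0) :=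
  integrableOn_exp_neg_Ioi 0

lemma integral_exp : ∫ x in Ioi (0:ℝ), Real.exp (-x) = 1 := integral_exp_neg_Ioi_zero

lemma hasDerivAt_aux1 (x : ℝ) :
    HasDerivAt (fun x : ℝ => -(x + 1) * Real.exp (-x)) (x * Real.exp (-x)) x := by
  have h1 : HasDerivAt (fun x : ℝ => -(x + 1)) (-1) x :=
    ((hasDerivAt_id x).add_const 1).neg
  have h : HasDerivAt (fun x : ℝ => -(x + 1) * Real.exp (-x))
      (-1 * Real.exp (-x) + -(x + 1) * -Real.exp (-x)) x := h1.mul (hasDerivAt_exp_neg x)
  exact h.congr_deriv (by ring)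

lemma tendsto_aux1 : Tendsto (fun x : ℝ => -(x + 1) * Real.exp (-x)) atTop (𝓝 0) := by
  have h := (tendsto_mul_exp_neg.add tendsto_exp_neg).neg
  simp only [add_zero, neg_zero] at h
  refine h.congr fun x => ?_
  ring

lemma integrableOn_mul_exp : IntegrableOn (fun x : ℝ => x * Real.exp (-x)) (Ioi 0) :=
  integrableOn_Ioi_deriv_of_nonneg' (fun x _ => hasDerivAt_aux1 x)
    (fun x hx => mul_nonneg (le_of_lt hx) (Real.exp_pos _).le) tendsto_aux1

lemma integral_mul_exp : ∫ x in Ioi (0:ℝ), x * Real.exp (-x) = 1 := by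
  rw [integral_Ioi_of_hasDerivAt_of_tendsto' (fun x _ => hasDerivAt_aux1 x)
    integrableOn_mul_exp tendsto_aux1]
  simp

lemma hasDerivAt_aux2 (x : ℝ) :
    HasDerivAt (fun x : ℝ => -(x ^ 2 + 2 * x + 2) * Real.exp (-x)) (x ^ 2 * Real.exp (-x)) x := by
  have h1 : HasDerivAt (fun x : ℝ => -(x ^ 2 + 2 * x + 2)) (-(2 * x + 2)) x := by
    have ha : HasDerivAt (fun x : ℝ => x ^ 2) (2 * x) x := by
      simpa using hasDerivAt_pow 2 x
    have hb : HasDerivAt (fun x : ℝ => 2 * x) 2 x := by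
      simpa using (hasDerivAt_id x).const_mul 2
    exact ((ha.add hb).add_const 2).neg
  have h : HasDerivAt (fun x : ℝ => -(x ^ 2 + 2 * x + 2) * Real.exp (-x))
      (-(2 * x + 2) * Real.exp (-x) + -(x ^ 2 + 2 * x + 2) * -Real.exp (-x)) x :=
    h1.mul (hasDerivAt_exp_neg x)
  exact h.congr_deriv (by ring)

lemma tendsto_aux2 :
    Tendsto (fun x : ℝ => -(x ^ 2 + 2 * x + 2) * Real.exp (-x)) atTop (𝓝 0) := by
  have h := ((tendsto_sq_mul_exp_neg.add (tendsto_mul_exp_neg.const_mul 2)).add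
    (tendsto_exp_neg.const_mul 2)).neg
  simp only [mul_zero, add_zero, neg_zero] at h
  refine h.congr fun x => ?_
  ring

lemma integrableOn_sq_mul_exp : IntegrableOn (fun x : ℝ => x ^ 2 * Real.exp (-x)) (Ioi 0) :=
  integrableOn_Ioi_deriv_of_nonneg' (fun x _ => hasDerivAt_aux2 x)
    (fun x _ => mul_nonneg (sq_nonneg x) (Real.exp_pos _).le) tendsto_aux2

lemma integral_sq_mul_exp : ∫ x in Ioi (0:ℝ), x ^ 2 * Real.exp (-x) = 2 := by
  rw [integral_Ioi_of_hasDerivAt_of_tendsto' (fun x _ => hasDerivAt_aux2 x)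
    integrableOn_sq_mul_exp tendsto_aux2]
  simp

/-- the centred moments `(x - 1)^m e^{-x}`, `m ≤ 2`, are integrable -/
lemma integrableOn_centred (m : ℕ) (hm : m ≤ 2) :
    IntegrableOn (fun x : ℝ => (x - 1) ^ m * Real.exp (-x)) (Ioi 0) := by
  interval_cases m
  · simpa using integrableOn_exp
  · have h := integrableOn_mul_exp.sub integrableOn_exp
    refine h.congr_fun (fun x _ => ?_) measurableSet_Ioi
    simp only [Pi.sub_apply]
    ring
  · have h := (integrableOn_sq_mul_exp.sub (integrableOn_mul_exp.const_mul 2)).add integrableOn_exp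
    refine h.congr_fun (fun x _ => ?_) measurableSet_Ioi
    simp only [Pi.sub_apply, Pi.add_apply]
    ring

lemma integral_centred_one : ∫ x in Ioi (0:ℝ), (x - 1) ^ 1 * Real.exp (-x) = 0 := by
  have h : ∀ x : ℝ, (x - 1) ^ 1 * Real.exp (-x) = x * Real.exp (-x) - Real.exp (-x) := by
    intro x; ring
  simp_rw [h]
  rw [integral_sub, integral_mul_exp, integral_exp]
  · norm_num
  all_goals first
    | exact integrableOn_mul_exp
    | exact integrableOn_exp

lemma integral_centred_two : ∫ x in Ioi (0:ℝ), (x - 1) ^ 2 * Real.exp (-x) = 1 := by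
  have h : ∀ x : ℝ, (x - 1) ^ 2 * Real.exp (-x)
      = x ^ 2 * Real.exp (-x) - 2 * (x * Real.exp (-x)) + Real.exp (-x) := by
    intro x; ring
  simp_rw [h]
  rw [integral_add, integral_sub, integral_const_mul, integral_sq_mul_exp, integral_mul_exp,
    integral_exp]
  · norm_num
  all_goals first
    | exact integrableOn_sq_mul_exp
    | exact integrableOn_mul_exp.const_mul 2
    | exact integrableOn_sq_mul_exp.sub (integrableOn_mul_exp.const_mul 2)
    | exact integrableOn_exp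


/-! ### The distinguished coordinate: `∫₀^∞ g(2x - 2/3) e^{-x} dx = 1 - (4/9) e^{-1/3}` -/

/-- the one-variable factor for the distinguished coordinate -/
noncomputable def h0 (x : ℝ) : ℝ := truncExpWeight (2 * x - 2 / 3) * Real.exp (-x)

lemma continuous_h0 : Continuous h0 := by
  unfold h0
  exact (continuous_truncExpWeight.comp (by fun_prop)).mul (by fun_prop)

lemma abs_h0_le (x : ℝ) : ‖h0 x‖ ≤ Real.exp (-x) := by
  unfold h0
  rw [Real.norm_eq_abs, abs_mul, abs_of_nonneg (truncExpWeight_nonneg _),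
    abs_of_pos (Real.exp_pos _)]
  have := truncExpWeight_le_one (2 * x - 2 / 3)
  nlinarith [Real.exp_pos (-x)]

lemma integrableOn_h0 (s : Set ℝ) (hs : s ⊆ Ioi 0) : IntegrableOn h0 s := by
  have h1 : IntegrableOn (fun x : ℝ => Real.exp (-x)) s := integrableOn_exp.mono_set hs
  exact Integrable.mono' h1 continuous_h0.aestronglyMeasurable
    (Filter.Eventually.of_forall abs_h0_le)

/-- antiderivative of `(1/3 + 2x) e^{2/3 - 3x}` -/
noncomputable def Phi (x : ℝ) : ℝ := -(1 / 3 + 2 * x / 3) * Real.exp (2 / 3 - 3 * x)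

lemma hasDerivAt_Phi (x : ℝ) :
    HasDerivAt Phi ((1 / 3 + 2 * x) * Real.exp (2 / 3 - 3 * x)) x := by
  have h1 : HasDerivAt (fun x : ℝ => -(1 / 3 + 2 * x / 3)) (-(2 / 3)) x := by
    have hb : HasDerivAt (fun x : ℝ => 2 * x / 3) (2 / 3) x := by
      simpa using ((hasDerivAt_id x).const_mul 2).div_const 3
    exact (hb.const_add (1 / 3)).neg
  have h2 : HasDerivAt (fun x : ℝ => Real.exp (2 / 3 - 3 * x))
      (Real.exp (2 / 3 - 3 * x) * (-3)) x := by
    have hc : HasDerivAt (fun x : ℝ => 2 / 3 - 3 * x) (-3) x := by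
      simpa using ((hasDerivAt_id x).const_mul 3).const_sub (2 / 3)
    exact hc.exp
  have h : HasDerivAt (fun x : ℝ => -(1 / 3 + 2 * x / 3) * Real.exp (2 / 3 - 3 * x))
      (-(2 / 3) * Real.exp (2 / 3 - 3 * x)
        + -(1 / 3 + 2 * x / 3) * (Real.exp (2 / 3 - 3 * x) * (-3))) x := h1.mul h2
  exact h.congr_deriv (by ring)

lemma tendsto_Phi : Tendsto Phi atTop (𝓝 0) := by
  have h3 : Tendsto (fun x : ℝ => 3 * x) atTop atTop :=
    tendsto_id.const_mul_atTop (by norm_num : (0:ℝ) < 3)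
  have ha : Tendsto (fun x : ℝ => Real.exp (-(3 * x))) atTop (𝓝 0) := tendsto_exp_neg.comp h3
  have hb : Tendsto (fun x : ℝ => (3 * x) * Real.exp (-(3 * x))) atTop (𝓝 0) :=
    tendsto_mul_exp_neg.comp h3
  have h := ((ha.const_mul (Real.exp (2 / 3) / 3)).add
    (hb.const_mul (2 * Real.exp (2 / 3) / 9))).neg
  simp only [mul_zero, add_zero, neg_zero] at h
  refine h.congr fun x => ?_
  unfold Phi
  have : Real.exp (2 / 3 - 3 * x) = Real.exp (2 / 3) * Real.exp (-(3 * x)) := by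
    rw [← Real.exp_add]; ring_nf
  rw [this]
  ring

lemma h0_eq_of_le {x : ℝ} (hx : x ≤ 1 / 3) : h0 x = Real.exp (-x) := by
  unfold h0 truncExpWeight
  rw [if_pos (by linarith)]
  ring

lemma h0_eq_of_gt {x : ℝ} (hx : 1 / 3 < x) :
    h0 x = (1 / 3 + 2 * x) * Real.exp (2 / 3 - 3 * x) := by
  unfold h0 truncExpWeight
  rw [if_neg (by linarith)]
  have : Real.exp (2 / 3 - 3 * x) = Real.exp (-(2 * x - 2 / 3)) * Real.exp (-x) := by
    rw [← Real.exp_add]; ring_nf
  rw [this]
  ring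

lemma integral_h0_Ioi_third :
    ∫ x in Ioi (1 / 3 : ℝ), h0 x = 5 / 9 * Real.exp (-(1 / 3)) := by
  have h1 : ∫ x in Ioi (1 / 3 : ℝ), h0 x
      = ∫ x in Ioi (1 / 3 : ℝ), (1 / 3 + 2 * x) * Real.exp (2 / 3 - 3 * x) :=
    setIntegral_congr_fun measurableSet_Ioi (fun x hx => h0_eq_of_gt hx)
  rw [h1, integral_Ioi_of_hasDerivAt_of_nonneg' (fun x _ => hasDerivAt_Phi x)
    (fun x hx => by
      have hx' : (1 / 3 : ℝ) < x := hx
      have : (0:ℝ) < 1 / 3 + 2 * x := by linarith
      exact mul_nonneg this.le (Real.exp_pos _).le) tendsto_Phi]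
  unfold Phi
  have : (2 / 3 - 3 * (1 / 3) : ℝ) = -(1 / 3) := by norm_num
  rw [this]
  ring

lemma integral_h0_Ioc :
    ∫ x in Ioc (0 : ℝ) (1 / 3), h0 x = 1 - Real.exp (-(1 / 3)) := by
  have h1 : ∫ x in Ioc (0 : ℝ) (1 / 3), h0 x = ∫ x in Ioc (0 : ℝ) (1 / 3), Real.exp (-x) :=
    setIntegral_congr_fun measurableSet_Ioc (fun x hx => h0_eq_of_le hx.2)
  have hU : Ioc (0 : ℝ) (1 / 3) ∪ Ioi (1 / 3) = Ioi 0 :=
    Ioc_union_Ioi_eq_Ioi (by norm_num)
  have hd : Disjoint (Ioc (0 : ℝ) (1 / 3)) (Ioi (1 / 3)) :=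
    Set.disjoint_left.mpr fun x hx hx' => absurd hx.2 (not_le.mpr hx')
  have h2 := setIntegral_union (μ := volume) (f := fun x : ℝ => Real.exp (-x)) hd measurableSet_Ioi
    (integrableOn_exp.mono_set (hU ▸ subset_union_left))
    (integrableOn_exp.mono_set (hU ▸ subset_union_right))
  rw [hU, integral_exp, integral_exp_neg_Ioi] at h2
  rw [h1]
  linarith

lemma integral_h0 : ∫ x in Ioi (0 : ℝ), h0 x = 1 - 4 / 9 * Real.exp (-(1 / 3)) := by
  have hU : Ioc (0 : ℝ) (1 / 3) ∪ Ioi (1 / 3) = Ioi 0 :=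
    Ioc_union_Ioi_eq_Ioi (by norm_num)
  have hd : Disjoint (Ioc (0 : ℝ) (1 / 3)) (Ioi (1 / 3)) :=
    Set.disjoint_left.mpr fun x hx hx' => absurd hx.2 (not_le.mpr hx')
  have h2 := setIntegral_union (μ := volume) (f := h0) hd measurableSet_Ioi
    (integrableOn_h0 _ (hU ▸ subset_union_left))
    (integrableOn_h0 _ (hU ▸ subset_union_right))
  rw [hU, integral_h0_Ioc, integral_h0_Ioi_third] at h2
  rw [h2]
  ring


/-! ### The `n+1`-dimensional computation -/

/-- the product base measure on `Fin (n+1) → ℝ`: Lebesgue measure on the positive orthant -/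
noncomputable abbrev mu (n : ℕ) : Measure (Fin (n + 1) → ℝ) :=
  Measure.pi (fun _ : Fin (n + 1) => (volume : Measure ℝ).restrict (Ioi (0:ℝ)))

lemma exp_neg_sum {N : ℕ} (x : Fin N → ℝ) :
    Real.exp (-∑ i, x i) = ∏ i, Real.exp (-x i) := by
  rw [← Finset.sum_neg_distrib, Real.exp_sum]

/-- the coefficient vector `(2, -2/n, …, -2/n)` -/
noncomputable def avec (n : ℕ) : Fin (n + 1) → ℝ := Fin.cons 2 (fun _ => -2 / (n : ℝ))

lemma sum_avec (n : ℕ) (hn : n ≠ 0) : ∑ i, avec n i = 0 := by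
  have hn' : (n : ℝ) ≠ 0 := Nat.cast_ne_zero.mpr hn
  unfold avec
  rw [Fin.sum_univ_succ]
  simp only [Fin.cons_zero, Fin.cons_succ, Finset.sum_const, Finset.card_univ, Fintype.card_fin,
    nsmul_eq_mul]
  field_simp
  ring

/-- the deviation of the spread-out part from its mean -/
noncomputable def Y (n : ℕ) (x : Fin (n + 1) → ℝ) : ℝ :=
  ∑ j : Fin n, (-2 / (n : ℝ)) * (x j.succ - 1)

lemma arg_eq (n : ℕ) (hn : n ≠ 0) (x : Fin (n + 1) → ℝ) :
    4 / 3 + ∑ i, avec n i * x i = (2 * x 0 - 2 / 3) + Y n x := by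
  have hn' : (n : ℝ) ≠ 0 := Nat.cast_ne_zero.mpr hn
  unfold avec Y
  rw [Fin.sum_univ_succ]
  simp only [Fin.cons_zero, Fin.cons_succ, mul_sub, Finset.sum_sub_distrib, Finset.sum_const,
    Finset.card_univ, Fintype.card_fin, nsmul_eq_mul, mul_one]
  field_simp
  ring

lemma pointwise_lower (n : ℕ) (hn : n ≠ 0) (δ : ℝ) (hδ : 0 < δ) (x : Fin (n + 1) → ℝ) :
    truncExpWeight (2 * x 0 - 2 / 3) - (δ / 2 + (Y n x) ^ 2 / (2 * δ))
      ≤ truncExpWeight (4 / 3 + ∑ i, avec n i * x i) := by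
  rw [arg_eq n hn x]
  have h1 := truncExpWeight_lipschitz (2 * x 0 - 2 / 3) (2 * x 0 - 2 / 3 + Y n x)
  have h2 : |Y n x| ≤ δ / 2 + (Y n x) ^ 2 / (2 * δ) := by
    have h2δ : (0:ℝ) < 2 * δ := by positivity
    have : |Y n x| * (2 * δ) ≤ (δ / 2 + (Y n x) ^ 2 / (2 * δ)) * (2 * δ) := by
      have e : (δ / 2 + (Y n x) ^ 2 / (2 * δ)) * (2 * δ) = δ ^ 2 + (Y n x) ^ 2 := by
        field_simp
      rw [e]
      nlinarith [sq_nonneg (|Y n x| - δ), sq_abs (Y n x), abs_nonneg (Y n x)]
    exact le_of_mul_le_mul_right this h2δ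
  have h3 : (2 * x 0 - 2 / 3) - (2 * x 0 - 2 / 3 + Y n x) = -(Y n x) := by ring
  rw [h3, abs_neg] at h1
  have h4 := abs_le.mp h1
  linarith [h4.1, h4.2]

/-- the factors of the main product-form term -/
noncomputable def f1 (n : ℕ) : Fin (n + 1) → ℝ → ℝ :=
  Fin.cons h0 (fun _ t => Real.exp (-t))

lemma prod_f1 (n : ℕ) (x : Fin (n + 1) → ℝ) :
    ∏ i, f1 n i (x i) = truncExpWeight (2 * x 0 - 2 / 3) * ∏ i, Real.exp (-x i) := by
  unfold f1
  rw [Fin.prod_univ_succ, Fin.prod_univ_succ]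
  simp only [Fin.cons_zero, Fin.cons_succ, h0]
  ring

lemma integrable_f1 (n : ℕ) (i : Fin (n + 1)) :
    Integrable (f1 n i) ((volume : Measure ℝ).restrict (Ioi (0:ℝ))) := by
  unfold f1
  refine Fin.cases ?_ (fun j => ?_) i
  · simp only [Fin.cons_zero]
    exact integrableOn_h0 (Ioi 0) le_rfl
  · simp only [Fin.cons_succ]
    exact integrableOn_exp

lemma integral_T1 (n : ℕ) :
    ∫ x, ∏ i, f1 n i (x i) ∂(mu n) = 1 - 4 / 9 * Real.exp (-(1 / 3)) := by
  rw [integral_fintype_prod_eq_prod, Fin.prod_univ_succ]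
  simp only [f1, Fin.cons_zero, Fin.cons_succ]
  rw [integral_h0, integral_exp]
  simp

lemma integrable_T1 (n : ℕ) : Integrable (fun x : Fin (n + 1) → ℝ => ∏ i, f1 n i (x i)) (mu n) :=
  Integrable.fintype_prod (integrable_f1 n)

lemma integrable_P (n : ℕ) :
    Integrable (fun x : Fin (n + 1) → ℝ => ∏ i, Real.exp (-x i)) (mu n) :=
  Integrable.fintype_prod (f := fun (_ : Fin (n + 1)) (t : ℝ) => Real.exp (-t))
    (fun _ => integrableOn_exp)

lemma integral_P (n : ℕ) : ∫ x : Fin (n + 1) → ℝ, ∏ i, Real.exp (-x i) ∂(mu n) = 1 := by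
  rw [integral_fintype_prod_eq_prod (f := fun (_ : Fin (n + 1)) (t : ℝ) => Real.exp (-t))]
  simp only [integral_exp]
  simp

/-- centred monomial times the exponential weight -/
noncomputable def q (m : ℕ) (t : ℝ) : ℝ := (t - 1) ^ m * Real.exp (-t)

lemma integral_q0 : ∫ t in Ioi (0:ℝ), q 0 t = 1 := by
  simp only [q, pow_zero, one_mul]
  exact integral_exp

lemma integral_q1 : ∫ t in Ioi (0:ℝ), q 1 t = 0 := integral_centred_one

lemma integral_q2 : ∫ t in Ioi (0:ℝ), q 2 t = 1 := integral_centred_two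

/-- exponent pattern of the cross term `(x_j - 1)(x_k - 1)` -/
def epat (n : ℕ) (j k : Fin n) (i : Fin (n + 1)) : ℕ :=
  (if i = j.succ then 1 else 0) + (if i = k.succ then 1 else 0)

lemma epat_le (n : ℕ) (j k : Fin n) (i : Fin (n + 1)) : epat n j k i ≤ 2 := by
  unfold epat
  split_ifs <;> simp

lemma prod_q (n : ℕ) (j k : Fin n) (x : Fin (n + 1) → ℝ) :
    ∏ i, q (epat n j k i) (x i)
      = (x j.succ - 1) * (x k.succ - 1) * ∏ i, Real.exp (-x i) := by
  have h1 : ∀ a : Fin (n + 1),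
      ∏ i, (x i - 1) ^ (if i = a then 1 else 0) = x a - 1 := by
    intro a
    have : ∀ i, (x i - 1) ^ (if i = a then 1 else 0) = if i = a then (x i - 1) else 1 := by
      intro i
      split_ifs <;> simp
    simp_rw [this]
    rw [Finset.prod_ite_eq']
    simp
  unfold q epat
  rw [Finset.prod_mul_distrib]
  simp_rw [pow_add]
  rw [Finset.prod_mul_distrib, h1, h1]

lemma integrable_prod_q (n : ℕ) (j k : Fin n) :
    Integrable (fun x : Fin (n + 1) → ℝ => ∏ i, q (epat n j k i) (x i)) (mu n) :=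
  Integrable.fintype_prod (f := fun (i : Fin (n + 1)) (t : ℝ) => q (epat n j k i) t)
    (fun i => integrableOn_centred _ (epat_le n j k i))

lemma integral_prod_q (n : ℕ) (j k : Fin n) :
    ∫ x, ∏ i, q (epat n j k i) (x i) ∂(mu n) = if j = k then 1 else 0 := by
  rw [integral_fintype_prod_eq_prod (f := fun (i : Fin (n + 1)) (t : ℝ) => q (epat n j k i) t)]
  split_ifs with hjk
  · subst hjk
    apply Finset.prod_eq_one
    intro i _
    by_cases hi : i = j.succ
    · have : epat n j j i = 2 := by simp [epat, hi]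
      rw [this, integral_q2]
    · have : epat n j j i = 0 := by simp [epat, hi]
      rw [this, integral_q0]
  · apply Finset.prod_eq_zero (Finset.mem_univ j.succ)
    have hne : j.succ ≠ k.succ := fun h => hjk (Fin.succ_injective _ h)
    have : epat n j k j.succ = 1 := by simp [epat, hne]
    rw [this, integral_q1]

lemma Y_sq_mul (n : ℕ) (x : Fin (n + 1) → ℝ) :
    (Y n x) ^ 2 * ∏ i, Real.exp (-x i)
      = ∑ j : Fin n, ∑ k : Fin n, (4 / (n : ℝ) ^ 2) * ∏ i, q (epat n j k i) (x i) := by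
  simp_rw [prod_q]
  unfold Y
  rw [sq, Finset.sum_mul_sum, Finset.sum_mul]
  refine Finset.sum_congr rfl fun j _ => ?_
  rw [Finset.sum_mul]
  refine Finset.sum_congr rfl fun k _ => ?_
  ring

lemma integrable_Ysq (n : ℕ) :
    Integrable (fun x : Fin (n + 1) → ℝ => (Y n x) ^ 2 * ∏ i, Real.exp (-x i)) (mu n) := by
  simp_rw [Y_sq_mul]
  exact integrable_finsetSum _ fun j _ => integrable_finsetSum _ fun k _ =>
    (integrable_prod_q n j k).const_mul _

lemma integral_Ysq (n : ℕ) (hn : n ≠ 0) :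
    ∫ x : Fin (n + 1) → ℝ, (Y n x) ^ 2 * ∏ i, Real.exp (-x i) ∂(mu n) = 4 / (n : ℝ) := by
  have hn' : (n : ℝ) ≠ 0 := Nat.cast_ne_zero.mpr hn
  simp_rw [Y_sq_mul]
  rw [integral_finsetSum _ fun j _ => integrable_finsetSum _ fun k _ =>
    (integrable_prod_q n j k).const_mul _]
  have : ∀ j : Fin n, ∫ x : Fin (n + 1) → ℝ,
      ∑ k : Fin n, (4 / (n : ℝ) ^ 2) * ∏ i, q (epat n j k i) (x i) ∂(mu n) = 4 / (n : ℝ) ^ 2 := by
    intro j
    rw [integral_finsetSum _ fun k _ => (integrable_prod_q n j k).const_mul _]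
    simp_rw [integral_const_mul, integral_prod_q]
    simp
  simp_rw [this]
  simp only [Finset.sum_const, Finset.card_univ, Fintype.card_fin, nsmul_eq_mul]
  field_simp

lemma continuous_integrand (n : ℕ) :
    Continuous (fun x : Fin (n + 1) → ℝ =>
      truncExpWeight (4 / 3 + ∑ i, avec n i * x i) * ∏ i, Real.exp (-x i)) := by
  refine (continuous_truncExpWeight.comp ?_).mul ?_
  · fun_prop
  · fun_prop

lemma integrable_integrand (n : ℕ) :
    Integrable (fun x : Fin (n + 1) → ℝ =>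
      truncExpWeight (4 / 3 + ∑ i, avec n i * x i) * ∏ i, Real.exp (-x i)) (mu n) := by
  refine Integrable.mono' (integrable_P n) (continuous_integrand n).aestronglyMeasurable
    (Filter.Eventually.of_forall fun x => ?_)
  have hpos : 0 < ∏ i, Real.exp (-x i) := Finset.prod_pos fun i _ => Real.exp_pos _
  rw [Real.norm_eq_abs, abs_mul, abs_of_nonneg (truncExpWeight_nonneg _), abs_of_pos hpos]
  have := truncExpWeight_le_one (4 / 3 + ∑ i, avec n i * x i)
  nlinarith

lemma lower_bound (n : ℕ) (hn : n ≠ 0) (δ : ℝ) (hδ : 0 < δ) :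
    (1 - 4 / 9 * Real.exp (-(1 / 3))) - (δ / 2 + (4 / (n : ℝ)) / (2 * δ))
      ≤ ∫ x in Set.pi Set.univ (fun _ : Fin (n + 1) => Set.Ioi (0 : ℝ)),
          truncExpWeight (4 / 3 + ∑ i, avec n i * x i) * Real.exp (-∑ i, x i) := by
  rw [volume_pi, Measure.restrict_pi_pi]
  simp_rw [exp_neg_sum]
  have key : ∀ x : Fin (n + 1) → ℝ,
      ∏ i, f1 n i (x i) - (δ / 2) * ∏ i, Real.exp (-x i)
          - (1 / (2 * δ)) * ((Y n x) ^ 2 * ∏ i, Real.exp (-x i))
        ≤ truncExpWeight (4 / 3 + ∑ i, avec n i * x i) * ∏ i, Real.exp (-x i) := by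
    intro x
    rw [prod_f1]
    have hpos : 0 < ∏ i, Real.exp (-x i) := Finset.prod_pos fun i _ => Real.exp_pos _
    have h := mul_le_mul_of_nonneg_right (pointwise_lower n hn δ hδ x) hpos.le
    calc truncExpWeight (2 * x 0 - 2 / 3) * ∏ i, Real.exp (-x i)
            - (δ / 2) * ∏ i, Real.exp (-x i)
            - (1 / (2 * δ)) * ((Y n x) ^ 2 * ∏ i, Real.exp (-x i))
          = (truncExpWeight (2 * x 0 - 2 / 3) - (δ / 2 + (Y n x) ^ 2 / (2 * δ)))
              * ∏ i, Real.exp (-x i) := by ring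
      _ ≤ _ := h
  have hint1 : Integrable (fun x : Fin (n + 1) → ℝ =>
      ∏ i, f1 n i (x i) - (δ / 2) * ∏ i, Real.exp (-x i)
          - (1 / (2 * δ)) * ((Y n x) ^ 2 * ∏ i, Real.exp (-x i))) (mu n) :=
    ((integrable_T1 n).sub ((integrable_P n).const_mul _)).sub ((integrable_Ysq n).const_mul _)
  have hmono := integral_mono hint1 (integrable_integrand n) key
  have hval : ∫ x : Fin (n + 1) → ℝ,
      (∏ i, f1 n i (x i) - (δ / 2) * ∏ i, Real.exp (-x i)
          - (1 / (2 * δ)) * ((Y n x) ^ 2 * ∏ i, Real.exp (-x i))) ∂(mu n)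
      = (1 - 4 / 9 * Real.exp (-(1 / 3))) - (δ / 2 + (4 / (n : ℝ)) / (2 * δ)) := by
    rw [integral_sub, integral_sub, integral_const_mul, integral_const_mul, integral_T1,
      integral_P, integral_Ysq n hn]
    · ring
    all_goals first
      | exact integrable_T1 n
      | exact (integrable_P n).const_mul _
      | exact (integrable_Ysq n).const_mul _
      | exact (integrable_T1 n).sub ((integrable_P n).const_mul _)
  rw [hval] at hmono
  exact hmono

/-- **Lower-bound half of S0423**: the value `(3/4) e^{4/3} - e/3` is approached. The text of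
the statement is exactly the second conjunct of `Crest.Agent.S0423.result`. -/
theorem lower_half :
    ∀ ε : ℝ, 0 < ε → ∃ (N : ℕ) (a : Fin N → ℝ), 1 ≤ N ∧ ∑ i, a i = 0 ∧
      3 / 4 * Real.exp (4 / 3) - Real.exp 1 / 3 - ε <
        Real.exp (4 / 3) / (4 / 3) *
          ∫ x in Set.pi Set.univ (fun _ : Fin N => Set.Ioi (0 : ℝ)),
            Crest.AlgGeometry.truncExpWeight (4 / 3 + ∑ i, a i * x i) * Real.exp (-∑ i, x i) := by
  intro ε hε
  set c : ℝ := Real.exp (4 / 3) / (4 / 3) with hc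
  have hcpos : 0 < c := by positivity
  obtain ⟨n, hn⟩ := exists_nat_gt (4 * c ^ 2 / ε ^ 2)
  have hnpos : (0:ℝ) < n := lt_of_le_of_lt (by positivity) hn
  have hn0 : n ≠ 0 := by
    rintro rfl
    simp at hnpos
  refine ⟨n + 1, avec n, by omega, sum_avec n hn0, ?_⟩
  have hδ : 0 < ε / c := by positivity
  have hlb := lower_bound n hn0 (ε / c) hδ
  have hA : c * (1 - 4 / 9 * Real.exp (-(1 / 3)))
      = 3 / 4 * Real.exp (4 / 3) - Real.exp 1 / 3 := by
    have he : Real.exp (4 / 3) * Real.exp (-(1 / 3)) = Real.exp 1 := by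
      rw [← Real.exp_add]; norm_num
    rw [hc]
    linear_combination (-1 / 3 : ℝ) * he
  have herr : c * (ε / c / 2 + (4 / (n : ℝ)) / (2 * (ε / c))) < ε := by
    have h1 : c * (ε / c / 2 + (4 / (n : ℝ)) / (2 * (ε / c)))
        = ε / 2 + 2 * c ^ 2 / (n * ε) := by
      field_simp
      ring
    rw [h1]
    have h2 : 2 * c ^ 2 / (n * ε) < ε / 2 := by
      rw [div_lt_div_iff₀ (by positivity) (by norm_num)]
      have h3 : 4 * c ^ 2 < n * ε ^ 2 := by
        have := (div_lt_iff₀ (by positivity : (0:ℝ) < ε ^ 2)).mp hn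
        linarith
      nlinarith
    linarith
  have hmul := mul_le_mul_of_nonneg_left hlb hcpos.le
  rw [mul_sub, hA] at hmul
  linarith

end Crest.Agent.Helper23.S0423Lower
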